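import Vale.Agent.P078.M4
import Vale.Agent.P078.Apx
import Vale.Agent.P078.Brg4
import Vale.Agent.P078.Free
import Vale.Agent.P078.Nonsing
import Vale.Agent.P078.Final

namespace Vale.Agent.Results.P078.Paving

open Vale.Agent.P078

universe u

theorem result : ∃ C : ℝ, ∀ (H : Type u) [NormedAddCommGroup H] [InnerProductSpace ℂ H]
    [CompleteSpace H] (M : VonNeumannAlgebra H) (A : StarSubalgebra ℂ (H →L[ℂ] H)), IsMASA M A →
    ∀ ε : ℝ, 0 < ε → ε < 1 → ∃ r : ℕ, 1 ≤ r ∧ (r : ℝ) ≤ C / ε ^ 2 ∧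
      ∀ x ∈ M, IsSelfAdjoint x → SoPavable M A x ε r :=
  final_of_nonsing _ fun M _ _ _ => nonsing_of (disc_of_meas (by norm_num)
    (fun Ω _ _ _ _ => meas_of_par fun _ _ _ hr hΛ hε => exists_par Ω hr hΛ hε) M)
    fun _ X _ hx hd _ hr R k _ hδ => free_part X hx hd hr R k hδ

end Vale.Agent.Results.P078.Paving
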